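import Vale.Agent.P025.R2.H720.Prof
import Vale.Agent.P025.R2.H544.Patch

/-!
# P025 A-DIV (helper359), file 1: abstract form of (A2.2)

An element at a vertex `v` of the graph of an algebraic extension `N/F` which is an `n`-th power at
all edges at `v` is an `n`-th power at `v`, as soon as the glued element of `N` is an `n`-th power.
-/

namespace P025H359

open P025H544 P025H720 TopologicalSpace
open scoped TensorProduct

section Flat

variable {R : Type*} [CommRing R]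

theorem idem_or {e : R} (he : IsIdempotentElem e) (P : PrimeSpectrum R) :
    (1 - e ∈ P.asIdeal ∧ e ∉ P.asIdeal) ∨ (e ∈ P.asIdeal ∧ 1 - e ∉ P.asIdeal) := by
  have h0 : e * (1 - e) = 0 := by
    have := he.eq
    linear_combination -this
  have h1 : ¬ (e ∈ P.asIdeal ∧ 1 - e ∈ P.asIdeal) := by
    rintro ⟨h1, h2⟩
    exact P.2.ne_top ((Ideal.eq_top_iff_one _).mpr (by simpa using P.asIdeal.add_mem h1 h2))
  have : e * (1 - e) ∈ P.asIdeal := by rw [h0]; exact P.asIdeal.zero_mem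
  rcases P.2.mem_or_mem this with h2 | h2
  · exact Or.inr ⟨h2, fun h3 => h1 ⟨h2, h3⟩⟩
  · exact Or.inl ⟨h2, fun h3 => h1 ⟨h3, h2⟩⟩

/-- the zero set of an element of an absolutely flat ring is clopen -/
theorem isClopen_mem (h : AbsFlat R) (x : R) : IsClopen {P : PrimeSpectrum R | x ∈ P.asIdeal} := by
  obtain ⟨e, he, hx⟩ := h.exists_idem x
  have h1 : {P : PrimeSpectrum R | x ∈ P.asIdeal} =
      (PrimeSpectrum.basicOpen (1 - e) : Set (PrimeSpectrum R)) := by
    ext P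
    show x ∈ P.asIdeal ↔ 1 - e ∉ P.asIdeal
    rw [hx]
    rcases idem_or he P with h2 | h2
    · exact ⟨fun h3 => absurd h3 h2.2, fun h3 => absurd h2.1 h3⟩
    · exact ⟨fun _ => h2.2, fun _ => h2.1⟩
  constructor
  · have h2 : {P : PrimeSpectrum R | x ∈ P.asIdeal} = PrimeSpectrum.zeroLocus {x} := by
      ext P
      simp [PrimeSpectrum.mem_zeroLocus]
    rw [h2]
    exact PrimeSpectrum.isClosed_zeroLocus _
  · rw [h1]
    exact (PrimeSpectrum.basicOpen (1 - e)).2

theorem absFlat_isReduced (h : AbsFlat R) : IsReduced R := by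
  constructor
  rintro x ⟨k, hk⟩
  obtain ⟨y, hy⟩ := h x
  have h1 : ∀ m : ℕ, x = x ^ (m + 1) * y ^ m := by
    intro m
    induction m with
    | zero => simp
    | succ m ih =>
      calc x = x ^ (m + 1) * y ^ m := ih
        _ = (x ^ m * x) * y ^ m := by rw [pow_succ]
        _ = (x ^ m * (x ^ 2 * y)) * y ^ m := by rw [hy]
        _ = x ^ (m + 1 + 1) * y ^ (m + 1) := by ring
  rw [h1 k, pow_succ, hk, zero_mul, zero_mul]

/-- `n`-th powers on a finite union of clopen sets -/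
theorem exists_pow_list (h : AbsFlat R) (x : R) (n : ℕ) (l : List R) :
    ∃ y : R, ∀ P : PrimeSpectrum R, (∃ z ∈ l, x - z ^ n ∈ P.asIdeal) → x - y ^ n ∈ P.asIdeal := by
  induction l with
  | nil => exact ⟨0, fun P hP => by obtain ⟨z, hz, _⟩ := hP; simp at hz⟩
  | cons z l ih =>
    obtain ⟨y, hy⟩ := ih
    obtain ⟨e, he, hx⟩ := exists_idem_of_clopen (isClopen_mem h (x - z ^ n))
    refine ⟨e * z + (1 - e) * y, fun P hP => ?_⟩
    rcases idem_or he P with h1 | h1
    · have h2 : x - z ^ n ∈ P.asIdeal := (hx P).mpr h1.1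
      have h3 : z - (e * z + (1 - e) * y) ∈ P.asIdeal := by
        have : z - (e * z + (1 - e) * y) = (1 - e) * (z - y) := by ring
        rw [this]; exact P.asIdeal.mul_mem_right _ h1.1
      have h4 := P.asIdeal.mem_of_dvd (sub_dvd_pow_sub_pow z (e * z + (1 - e) * y) n) h3
      have := P.asIdeal.add_mem h2 h4
      simpa using this
    · have hz : x - z ^ n ∉ P.asIdeal := fun h5 => h1.2 ((hx P).mp h5)
      have h2 : x - y ^ n ∈ P.asIdeal := by
        apply hy
        obtain ⟨z', hz', h6⟩ := hP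
        rcases List.mem_cons.mp hz' with rfl | h7
        · exact absurd h6 hz
        · exact ⟨z', h7, h6⟩
      have h3 : y - (e * z + (1 - e) * y) ∈ P.asIdeal := by
        have : y - (e * z + (1 - e) * y) = e * (y - z) := by ring
        rw [this]; exact P.asIdeal.mul_mem_right _ h1.1
      have h4 := P.asIdeal.mem_of_dvd (sub_dvd_pow_sub_pow y (e * z + (1 - e) * y) n) h3
      have := P.asIdeal.add_mem h2 h4
      simpa using this

/-- an element which is an `n`-th power at every point is an `n`-th power -/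
theorem exists_pow_of_local (h : AbsFlat R) (x : R) (n : ℕ)
    (hloc : ∀ P : PrimeSpectrum R, ∃ y : R, x - y ^ n ∈ P.asIdeal) : ∃ y : R, y ^ n = x := by
  have hred := absFlat_isReduced h
  choose y hy using hloc
  obtain ⟨t, ht⟩ := (isCompact_univ (X := PrimeSpectrum R)).elim_finite_subcover
    (fun P : PrimeSpectrum R => {Q : PrimeSpectrum R | x - y P ^ n ∈ Q.asIdeal})
    (fun P => (isClopen_mem h _).isOpen)
    (fun P _ => Set.mem_iUnion.mpr ⟨P, hy P⟩)
  obtain ⟨z, hz⟩ := exists_pow_list h x n (t.toList.map y)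
  refine ⟨z, ?_⟩
  symm
  apply sub_eq_zero.mp
  apply eq_zero_of_forall_mem
  intro P
  apply hz
  obtain ⟨Q, hQ, hQ'⟩ : ∃ Q ∈ t, x - y Q ^ n ∈ P.asIdeal := by
    have := ht (Set.mem_univ P)
    simpa using this
  exact ⟨y Q, List.mem_map.mpr ⟨Q, Finset.mem_toList.mpr hQ, rfl⟩, hQ'⟩

/-- lifting of nonzero residues to units -/
theorem exists_unit (h : AbsFlat R) (x : R) (P : PrimeSpectrum R) (hx : x ∉ P.asIdeal) :
    ∃ u : Rˣ, x - u ∈ P.asIdeal := by
  obtain ⟨y, hy⟩ := h x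
  have h1 : x * y * (x * y) = x * y := by linear_combination y * hy
  refine ⟨⟨x * (x * y) + (1 - x * y), y * (x * y) + (1 - x * y), ?_, ?_⟩, ?_⟩
  · linear_combination (x * y + 2 - x - y) * h1
  · linear_combination (x * y + 2 - x - y) * h1
  · show x - (x * (x * y) + (1 - x * y)) ∈ P.asIdeal
    have h2 : x - (x * (x * y) + (1 - x * y)) = -(1 - x * y) := by linear_combination -hy
    rw [h2]
    apply P.asIdeal.neg_mem
    have : x * (1 - x * y) ∈ P.asIdeal := by
      have h3 : x * (1 - x * y) = 0 := by linear_combination -hy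
      rw [h3]; exact P.asIdeal.zero_mem
    exact (P.2.mem_or_mem this).resolve_left hx

end Flat

section Vertex

variable {F F1 F2 F0 : Type*} [Field F] [Field F1] [Field F2] [Field F0]
  [Algebra F F1] [Algebra F F2] [Algebra F F0] [Algebra F1 F0] [Algebra F2 F0]
  [IsScalarTower F F1 F0] [IsScalarTower F F2 F0] {N : Type*} [Field N] [Algebra F N]

theorem absFlat_pt (A : Type*) [Field A] [Algebra F A] [Algebra.IsAlgebraic F N]
    [Algebra.IsSeparable F N] : AbsFlat (A ⊗[F] N) := by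
  have : Algebra.IsIntegral F N := inferInstance
  have hr : IsReduced (A ⊗[F] N) := isReduced_tensor
  exact absFlat_of_integral A (A ⊗[F] N)

/-- (A2.2), abstract form: `a` a unit of `F1 ⊗ N` which is an `n`-th power at all edges at `v`; if
all elements `z` of `N` glued from `a` near `v` and `1` elsewhere are `n`-th powers, then `a` is an
`n`-th power at `v`. -/
theorem root_at_vertex (hP : Patch F F1 F2 F0) [Algebra.IsAlgebraic F N]
    [Algebra.IsSeparable F N] (n : ℕ) (v : Pt F F1 N) (a : (F1 ⊗[F] N)ˣ)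
    (e0 : F1 ⊗[F] N) (hv0 : 1 - e0 ∈ v.asIdeal)
    (hE : ∀ w : Pt F F0 N, edge F F1 F0 N w = v →
      ∃ y : F0 ⊗[F] N, bc F F1 F0 N a - y ^ n ∈ w.asIdeal)
    (hR : ∀ e : F1 ⊗[F] N, IsIdempotentElem e → e * e0 = e → 1 - e ∈ v.asIdeal →
      ∀ (z : N) (s : (F1 ⊗[F] N)ˣ) (t : (F2 ⊗[F] N)ˣ), z ≠ 0 →
        (1 : F1) ⊗ₜ[F] z = (e * a + (1 - e)) * (s : F1 ⊗[F] N) ^ n →
        (1 : F2) ⊗ₜ[F] z = (t : F2 ⊗[F] N) ^ n → ∃ y : N, y ^ n = z) :
    ∃ y : F1 ⊗[F] N, (a : F1 ⊗[F] N) - y ^ n ∈ v.asIdeal := by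
  have hf1 : AbsFlat (F1 ⊗[F] N) := absFlat_pt F1
  have hf0 : AbsFlat (F0 ⊗[F] N) := absFlat_pt F0
  have ht2 : T2Space (Pt F F1 N) := hf1.t2
  have hts : TotallySeparatedSpace (Pt F F1 N) := hf1.totallySeparated
  have htd : TotallyDisconnectedSpace (Pt F F1 N) := inferInstance
  -- an open set containing the fibre where `a` is locally a power
  set W : Set (Pt F F0 N) := {w | ∃ y : F0 ⊗[F] N, bc F F1 F0 N a - y ^ n ∈ w.asIdeal} with hW
  have hWo : IsOpen W := by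
    rw [isOpen_iff_mem_nhds]
    rintro w ⟨y, hy⟩
    exact Filter.mem_of_superset ((isClopen_mem hf0 _).isOpen.mem_nhds hy) (fun w' hw' => ⟨y, hw'⟩)
  have hcont : Continuous (edge F F1 F0 N) := PrimeSpectrum.continuous_comap _
  have hclosed : IsClosed (edge F F1 F0 N '' Wᶜ) := by
    have hc : IsCompact (edge F F1 F0 N '' Wᶜ) :=
      (hWo.isClosed_compl.isCompact).image hcont
    exact hc.isClosed
  obtain ⟨e1, he1, hv1⟩ := exists_idem_of_clopen
    (isClopen_mem hf1 (1 - e0))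
  have hO : IsOpen ((edge F F1 F0 N '' Wᶜ)ᶜ ∩ {P : Pt F F1 N | 1 - e0 ∈ P.asIdeal}) :=
    hclosed.isOpen_compl.inter (isClopen_mem hf1 (1 - e0)).isOpen
  have hvO : v ∈ (edge F F1 F0 N '' Wᶜ)ᶜ ∩ {P : Pt F F1 N | 1 - e0 ∈ P.asIdeal} := by
    refine ⟨?_, hv0⟩
    rintro ⟨w, hw, hwv⟩
    exact hw (hE w hwv)
  obtain ⟨U, hU, hvU, hUO⟩ := compact_exists_isClopen_in_isOpen hO hvO
  obtain ⟨e, he, heU⟩ := exists_idem_of_clopen hU
  have hee0 : e * e0 = e := by
    have hred := absFlat_isReduced hf1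
    apply sub_eq_zero.mp
    apply eq_zero_of_forall_mem
    intro P
    have h1 : e * e0 - e = -(e * (1 - e0)) := by ring
    rw [h1]
    apply P.asIdeal.neg_mem
    rcases idem_or he P with h2 | h2
    · exact P.asIdeal.mul_mem_left _ (hUO ((heU P).mpr h2.1)).2
    · exact P.asIdeal.mul_mem_right _ h2.1
  have hvP : 1 - e ∈ v.asIdeal := (heU v).mp hvU
  -- the new unit
  have hee := he.eq
  let a' : (F1 ⊗[F] N)ˣ := ⟨e * a + (1 - e), e * ↑a⁻¹ + (1 - e), by
      have h1 : (a : F1 ⊗[F] N) * ↑a⁻¹ = 1 := a.mul_inv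
      linear_combination (e * e) * h1 + (2 - (a : F1 ⊗[F] N) - ↑a⁻¹) * hee, by
      have h1 : (a : F1 ⊗[F] N) * ↑a⁻¹ = 1 := a.mul_inv
      linear_combination (e * e) * h1 + (2 - (a : F1 ⊗[F] N) - ↑a⁻¹) * hee⟩
  have ha' : (a' : F1 ⊗[F] N) = e * a + (1 - e) := rfl
  -- locally a power
  obtain ⟨y, hy⟩ := exists_pow_of_local hf0 (bc F F1 F0 N a') n (by
    intro w
    rcases idem_or he (edge F F1 F0 N w) with h1 | h1
    · have hw : w ∈ W := by
        by_contra hcon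
        exact (hUO ((heU _).mpr h1.1)).1 ⟨w, hcon, rfl⟩
      obtain ⟨y, hy⟩ := hw
      refine ⟨y, ?_⟩
      have h2 : bc F F1 F0 N (1 - e) ∈ w.asIdeal := h1.1
      have h3 : bc F F1 F0 N a' - y ^ n = (bc F F1 F0 N a - y ^ n) +
          bc F F1 F0 N (1 - e) * (1 - bc F F1 F0 N a) := by
        rw [ha']
        simp only [map_add, map_mul, map_sub, map_one]
        ring
      rw [h3]
      exact w.asIdeal.add_mem hy (w.asIdeal.mul_mem_right _ h2)
    · refine ⟨1, ?_⟩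
      have h2 : bc F F1 F0 N e ∈ w.asIdeal := h1.1
      have h3 : bc F F1 F0 N a' - 1 ^ n = bc F F1 F0 N e * (bc F F1 F0 N a - 1) := by
        rw [ha', one_pow]
        simp only [map_add, map_mul, map_sub, map_one]
        ring
      rw [h3]
      exact w.asIdeal.mul_mem_right _ h2)
  rcases Nat.eq_zero_or_pos n with hn | hn
  · -- n = 0: the element is one at all edges, trivial case
    subst hn
    rw [pow_zero] at hy
    refine ⟨1, ?_⟩
    have h1 : (a' : F1 ⊗[F] N) = 1 := by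
      apply bc_injective F1 F0 N
      rw [← hy, map_one]
    have h2 : (a : F1 ⊗[F] N) - 1 ^ 0 = (1 - e) * (a - 1) := by
      rw [pow_zero]
      linear_combination h1 - ha'
    rw [h2]
    exact v.asIdeal.mul_mem_right _ hvP
  have hyu : IsUnit y := by
    have h1 : IsUnit (y ^ n) := by
      rw [hy]
      exact a'.isUnit.map (bc F F1 F0 N)
    exact (isUnit_pow_iff hn.ne').mp h1
  obtain ⟨w, hw⟩ := hyu
  obtain ⟨z, hz0, ⟨s, hs⟩, ⟨t, ht⟩⟩ := hP.kummer_glue n a' 1 w (by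
    rw [hw, hy, Units.val_one, map_one, one_mul])
  rw [Units.val_one, one_mul] at ht
  rw [ha'] at hs
  obtain ⟨y0, hy0⟩ := hR e he hee0 hvP z s t hz0 hs ht
  refine ⟨(1 : F1) ⊗ₜ[F] y0 * ↑s⁻¹, ?_⟩
  have hss : (s : F1 ⊗[F] N) * ↑s⁻¹ = 1 := s.mul_inv
  have h1 : ((1 : F1) ⊗ₜ[F] y0 * (↑s⁻¹ : F1 ⊗[F] N)) ^ n = e * a + (1 - e) := by
    rw [mul_pow, Algebra.TensorProduct.tmul_pow, one_pow, hy0, hs, mul_assoc, ← mul_pow, hss,
      one_pow, mul_one]
  rw [h1]
  have h2 : (a : F1 ⊗[F] N) - (e * a + (1 - e)) = (1 - e) * (a - 1) := by ring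
  rw [h2]
  exact v.asIdeal.mul_mem_right _ hvP

/-- (A2.2), global form: a unit `x` of `F1 ⊗ N` which is an `n`-th power at all edges, and such
that all elements of `N` glued from `x` on `V` and `1` on `D` are `n`-th powers, is an `n`-th
power. -/
theorem root_on_V (hP : Patch F F1 F2 F0) [Algebra.IsAlgebraic F N]
    [Algebra.IsSeparable F N] {n : ℕ} (hn : 0 < n) (x : (F1 ⊗[F] N)ˣ)
    (hE : ∀ w : Pt F F0 N, ∃ y : F0 ⊗[F] N, bc F F1 F0 N x - y ^ n ∈ w.asIdeal)
    (hR : ∀ (z : N) (s : (F1 ⊗[F] N)ˣ) (t : (F2 ⊗[F] N)ˣ), z ≠ 0 →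
        (1 : F1) ⊗ₜ[F] z = x * (s : F1 ⊗[F] N) ^ n →
        (1 : F2) ⊗ₜ[F] z = (t : F2 ⊗[F] N) ^ n → ∃ y : N, y ^ n = z) :
    ∃ y : (F1 ⊗[F] N)ˣ, (y : F1 ⊗[F] N) ^ n = x := by
  have hf0 : AbsFlat (F0 ⊗[F] N) := absFlat_pt F0
  obtain ⟨y, hy⟩ := exists_pow_of_local hf0 (bc F F1 F0 N x) n hE
  have hyu : IsUnit y := by
    have h1 : IsUnit (y ^ n) := by
      rw [hy]
      exact x.isUnit.map (bc F F1 F0 N)
    exact (isUnit_pow_iff hn.ne').mp h1
  obtain ⟨w, hw⟩ := hyu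
  obtain ⟨z, hz0, ⟨s, hs⟩, ⟨t, ht⟩⟩ := hP.kummer_glue n x 1 w (by
    rw [hw, hy, Units.val_one, map_one, one_mul])
  rw [Units.val_one, one_mul] at ht
  obtain ⟨y0, hy0⟩ := hR z s t hz0 hs ht
  have hy00 : y0 ≠ 0 := by
    rintro rfl
    rw [zero_pow hn.ne'] at hy0
    exact hz0 hy0.symm
  have hu : IsUnit ((1 : F1) ⊗ₜ[F] y0) := by
    have := (isUnit_iff_ne_zero.mpr hy00).map
      (Algebra.TensorProduct.includeRight (R := F) (A := F1) (B := N))
    simpa using this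
  obtain ⟨u, hu⟩ := hu
  refine ⟨u * s⁻¹, ?_⟩
  have hss : (s : F1 ⊗[F] N) * ↑s⁻¹ = 1 := s.mul_inv
  rw [Units.val_mul, hu, mul_pow, Algebra.TensorProduct.tmul_pow, one_pow, hy0, hs, mul_assoc,
    ← mul_pow, hss, one_pow, mul_one]

end Vertex

end P025H359
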