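import Vale.Agent.P025.R2.H746.Kap
import Vale.Agent.P025.R2.H133.Step

/-!
# P025 G-S1 (A): a residual `p`-basis (helper359)

`exists_pb`: over the Gauss norm of `C(T)` there is `t : K` whose residue class is a `p`-basis of
the residue field.
-/

set_option linter.unusedSectionVars false

open Polynomial IntermediateField

namespace P025H359

open P025H373 P025H746 P025H133 Vale.Agent.P019P

section alg

variable {k F : Type*} [Field k] [Field F] [Algebra k F]

theorem ind_of_notMem {p : ℕ} (hp : p.Prime) [CharP F p] {t : F}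
    (ht : ∀ u : F, u ^ p ≠ t) (c : ℕ → F)
    (h : ∑ j ∈ Finset.range p, t ^ j * c j ^ p = 0) : ∀ j < p, c j = 0 := by
  classical
  have : Fact p.Prime := ⟨hp⟩
  set L : Subfield F := (frobenius F p).fieldRange with hL
  have hmem : ∀ u : F, u ^ p ∈ L := fun u => ⟨u, rfl⟩
  let d : ℕ → L := fun j => ⟨c j ^ p, hmem _⟩
  let a : L := ⟨t ^ p, hmem _⟩
  have hirr : Irreducible (X ^ p - C a : L[X]) := by
    refine X_pow_sub_C_irreducible_of_prime hp fun b hb => ?_
    have h1 : (b : F) ^ p = t ^ p := congrArg Subtype.val hb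
    have h2 : (b : F) = t := by
      have := frobenius_inj F p
      exact this h1
    obtain ⟨u, hu⟩ := b.2
    exact ht u (by rw [← h2, ← hu]; rfl)
  have hroot : aeval t (X ^ p - C a : L[X]) = 0 := by
    simp only [map_sub, map_pow, aeval_X, aeval_C]
    exact sub_self _
  have hmin : X ^ p - C a = minpoly L t :=
    minpoly.eq_of_irreducible_of_monic hirr hroot (monic_X_pow_sub_C a hp.ne_zero)
  let Q : L[X] := ∑ j ∈ Finset.range p, C (d j) * X ^ j
  have hQ : aeval t Q = 0 := by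
    rw [← h]
    simp only [Q, map_sum, map_mul, aeval_C, map_pow, aeval_X]
    refine Finset.sum_congr rfl fun j _ => ?_
    rw [mul_comm]
    rfl
  have hQdeg : Q.degree < p := by
    refine (degree_sum_le _ _).trans_lt ?_
    rw [Finset.sup_lt_iff (by exact_mod_cast WithBot.bot_lt_coe p)]
    intro j hj
    refine (degree_C_mul_X_pow_le _ _).trans_lt ?_
    exact_mod_cast Finset.mem_range.1 hj
  have hQ0 : Q = 0 := by
    by_contra hne
    have h1 := minpoly.degree_le_of_ne_zero L t hne hQ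
    rw [← hmin, degree_X_pow_sub_C hp.pos] at h1
    exact absurd hQdeg (not_lt.2 h1)
  intro j hj
  have h3 := congrArg (fun P => P.coeff j) hQ0
  simp only [Q, finsetSum_coeff, coeff_C_mul, coeff_X_pow, coeff_zero] at h3
  rw [Finset.sum_eq_single j] at h3
  · rw [if_pos rfl, mul_one] at h3
    have h4 : c j ^ p = 0 := congrArg Subtype.val h3
    exact pow_eq_zero_iff hp.ne_zero |>.1 h4
  · intro b _ hb
    rw [if_neg (Ne.symm hb), mul_zero]
  · intro hb
    exact absurd (Finset.mem_range.2 hj) hb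

theorem notMem_of_sep {p : ℕ} (hp : p.Prime) [CharP F p] {t : F} (htr : Transcendental k t)
    [Algebra.IsSeparable k⟮t⟯ F] (u : F) : u ^ p ≠ t := by
  classical
  have : Fact p.Prime := ⟨hp⟩
  intro hu
  have : CharP k⟮t⟯ p := by
    refine (RingHom.charP_iff (algebraMap k⟮t⟯ F) (algebraMap k⟮t⟯ F).injective p).2 inferInstance
  have : ExpChar k⟮t⟯ p := ExpChar.prime hp
  have h1 := adjoin_simple_eq_adjoin_pow_expChar_of_isSeparable' k⟮t⟯ F u p
  have h2 : u ∈ k⟮t⟯⟮u⟯ := mem_adjoin_simple_self _ _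
  rw [h1, hu] at h2
  have h3 : k⟮t⟯⟮t⟯ = (⊥ : IntermediateField k⟮t⟯ F) := by
    rw [adjoin_simple_eq_bot_iff, mem_bot]
    exact ⟨⟨t, mem_adjoin_simple_self _ _⟩, rfl⟩
  rw [h3, mem_bot] at h2
  obtain ⟨v, hv⟩ := h2
  have h4 : u ∈ k⟮t⟯ := by rw [← hv]; exact v.2
  rw [mem_adjoin_simple_iff] at h4
  obtain ⟨P, Q, hPQ⟩ := h4
  have ht0 : t ≠ 0 := by
    rintro rfl
    exact htr (isAlgebraic_zero)
  have hQ0 : aeval t Q ≠ 0 := by
    intro h0
    rw [h0, div_zero] at hPQ
    apply ht0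
    rw [← hu, hPQ, zero_pow hp.ne_zero]
  have h5 : aeval t (X * Q ^ p) = aeval t (P ^ p) := by
    rw [map_mul, aeval_X, map_pow, map_pow]
    have : aeval t P = u * aeval t Q := by rw [hPQ, div_mul_cancel₀ _ hQ0]
    rw [this, mul_pow, hu]
  have h6 : X * Q ^ p = P ^ p := (transcendental_iff_injective.1 htr) h5
  have hQ1 : Q ≠ 0 := by
    rintro rfl
    exact hQ0 (map_zero _)
  have h7 := congrArg natDegree h6
  rw [natDegree_mul X_ne_zero (pow_ne_zero _ hQ1), natDegree_X, natDegree_pow, natDegree_pow] at h7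
  have h8 : p ∣ 1 := by
    have h9 : p ∣ 1 + p * Q.natDegree := by
      rw [h7]
      exact dvd_mul_right _ _
    exact (Nat.dvd_add_left (dvd_mul_right _ _)).1 h9
  exact hp.one_lt.ne' (Nat.dvd_one.1 h8)

theorem gen_of_sep [IsAlgClosed k] {p : ℕ} (hp : p.Prime) [CharP F p] {t : F}
    [Algebra.IsSeparable k⟮t⟯ F] (x : F) :
    ∃ c : ℕ → F, x = ∑ j ∈ Finset.range p, t ^ j * c j ^ p := by
  classical
  have : Fact p.Prime := ⟨hp⟩
  set L : Subfield F := (frobenius F p).fieldRange with hL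
  have hmem : ∀ u : F, u ^ p ∈ L := fun u => ⟨u, rfl⟩
  let E : IntermediateField L F := L⟮t⟯
  have hLE : ∀ u : F, u ^ p ∈ E := fun u => E.algebraMap_mem ⟨u ^ p, hmem u⟩
  have htE : t ∈ E := mem_adjoin_simple_self _ _
  -- `k ⊆ E`
  let E1 : IntermediateField k F := E.toSubfield.toIntermediateField (fun a => by
    obtain ⟨b, hb⟩ := IsAlgClosed.exists_pow_nat_eq a hp.pos
    rw [← hb, map_pow]
    exact hLE _)
  have hE1 : k⟮t⟯ ≤ E1 := by
    rw [adjoin_simple_le_iff]
    exact htE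
  let E2 : IntermediateField k⟮t⟯ F := E.toSubfield.toIntermediateField (fun a => hE1 a.2)
  have : CharP k⟮t⟯ p := by
    refine (RingHom.charP_iff (algebraMap k⟮t⟯ F) (algebraMap k⟮t⟯ F).injective p).2 inferInstance
  have : ExpChar k⟮t⟯ p := ExpChar.prime hp
  have h1 := adjoin_simple_eq_adjoin_pow_expChar_of_isSeparable' k⟮t⟯ F x p
  have h2 : x ∈ k⟮t⟯⟮x⟯ := mem_adjoin_simple_self _ _
  rw [h1] at h2
  have h3 : k⟮t⟯⟮x ^ p⟯ ≤ E2 := by
    rw [adjoin_simple_le_iff]
    exact hLE x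
  have hxE : x ∈ L⟮t⟯ := h3 h2
  -- write `x` as a polynomial in `t`
  let a : L := ⟨t ^ p, hmem _⟩
  have hq : (X ^ p - C a : L[X]).Monic := monic_X_pow_sub_C a hp.ne_zero
  have hroot : aeval t (X ^ p - C a : L[X]) = 0 := by
    simp only [map_sub, map_pow, aeval_X, aeval_C]
    exact sub_self _
  have hint : IsIntegral L t := ⟨_, hq, hroot⟩
  have hx2 : x ∈ (L⟮t⟯).toSubalgebra := hxE
  rw [adjoin_simple_toSubalgebra_of_isAlgebraic hint.isAlgebraic,
    Algebra.adjoin_singleton_eq_range_aeval] at hx2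
  obtain ⟨P, hP⟩ := hx2
  have hP' : aeval t P = x := hP
  have hP2 : aeval t (P %ₘ (X ^ p - C a)) = x := by
    rw [← hP']
    exact aeval_modByMonic_eq_self_of_root hroot
  set R := P %ₘ (X ^ p - C a) with hR
  have hdeg : R.natDegree < p := by
    have := natDegree_modByMonic_lt P hq (by
      intro h1
      have h2 := congrArg natDegree h1
      rw [natDegree_X_pow_sub_C, natDegree_one] at h2
      exact hp.ne_zero h2)
    rwa [natDegree_X_pow_sub_C] at this
  choose c hc using fun j => (R.coeff j).2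
  refine ⟨c, ?_⟩
  rw [← hP2, aeval_eq_sum_range' hdeg]
  refine Finset.sum_congr rfl fun j _ => ?_
  rw [Algebra.smul_def, mul_comm]
  congr 1
  exact (hc j).symm

/-- a `p`-basis of a function field of one variable over an algebraically closed field -/
theorem exists_pbasis [CFF k F] [IsAlgClosed k] {p : ℕ} (hp : p.Prime) [CharP F p] :
    ∃ t : F, Transcendental k t ∧
      (∀ x : F, ∃ c : ℕ → F, x = ∑ j ∈ Finset.range p, t ^ j * c j ^ p) ∧
      (∀ c : ℕ → F, ∑ j ∈ Finset.range p, t ^ j * c j ^ p = 0 → ∀ j < p, c j = 0) := by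
  obtain ⟨t, ht, _, hsep⟩ := exists_sep k F
  exact ⟨t, ht, gen_of_sep (k := k) hp, ind_of_notMem hp (notMem_of_sep (k := k) hp ht)⟩

end alg

section main

variable {C K : Type*} [NontriviallyNormedField C] [IsUltrametricDist C] [Field K] [Algebra C K]

/-- an element with transcendental residue class induces the Gauss norm -/
theorem overG_of_transc {w : NV C K} {t : K} (ht1 : w t ≤ 1)
    (htr : Transcendental (kC C) (w.red t)) : w.OverG t := by
  intro P
  rcases eq_or_ne P 0 with rfl | hP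
  · rw [map_zero, map_zero, gp_zero]
  obtain ⟨i, hi⟩ := exists_coeff_eq P
  have hg : gp P ≠ 0 := fun h => hP (gp_eq_zero.1 h)
  have hc : P.coeff i ≠ 0 := by
    intro h
    rw [h, norm_zero] at hi
    exact hg hi.symm
  have h1 : gp (Polynomial.C (P.coeff i)⁻¹ * P) = 1 := by
    rw [gp_mul, gp_C, norm_inv, hi, inv_mul_cancel₀ hg]
  have h2 : pred (Polynomial.C (P.coeff i)⁻¹ * P) ≠ 0 := by
    intro h
    rw [pred_eq_zero h1.le, h1] at h
    exact lt_irrefl _ h
  have h3 : w.red (aeval t (Polynomial.C (P.coeff i)⁻¹ * P)) ≠ 0 := by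
    rw [NV.red_aeval ht1 h1.le]
    intro h
    exact h2 ((transcendental_iff.1 htr) _ h)
  have h4 : w (aeval t (Polynomial.C (P.coeff i)⁻¹ * P)) = 1 := by
    by_contra hne
    exact h3 (NV.red_of_lt (lt_of_le_of_ne (NV.aeval_le ht1 h1.le) hne))
  rw [map_mul, aeval_C, map_mul, w.ext', norm_inv, hi] at h4
  rw [inv_mul_eq_one₀ hg] at h4
  exact h4.symm

theorem charP_kap {p : ℕ} (hp : p.Prime) (h1 : ‖(p : C)‖ < 1) (w : NV C K) : CharP (kap w) p := by
  have h0 : ((p : ℕ) : kap w) = 0 := by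
    have h2 : w (p : K) < 1 := by
      have := w.ext' (p : C)
      rw [map_natCast] at this
      rwa [this]
    have h3 : w.red (p : K) = 0 := NV.red_of_lt h2
    rw [NV.red_of h2.le] at h3
    rw [← h3]
    have : (⟨(p : K), h2.le⟩ : w.ring) = ((p : ℕ) : w.ring) := by
      apply Subtype.ext
      simp
    rw [this, map_natCast]
  exact (CharP.charP_iff_prime_eq_zero hp).2 h0

variable [IsAlgClosed C] [CharZero K]

/-- **(A)** residual `p`-basis -/
theorem exists_pb {p : ℕ} (hp : p.Prime) (h1 : ‖(p : C)‖ < 1) {T : K} [FiniteDimensional C⟮T⟯ K]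
    {w : NV C K} (hw : w.OverG T) :
    ∃ t : K, PB p w.av t ∧ w.OverG t ∧ FiniteDimensional C⟮t⟯ K := by
  classical
  have := charP_kap hp h1 w
  have hcff : CFF (kC C) (kap w) := hw.cff
  have hcff' : CFF C K := hw.cff'
  obtain ⟨s, hs, hgen, hind⟩ := exists_pbasis (k := kC C) (F := kap w) hp
  obtain ⟨t, ht1, rfl⟩ := NV.red_surj s
  have hG : w.OverG t := overG_of_transc ht1 hs
  have hle : ∀ c : ℕ → K, (∀ j, w (c j) ≤ 1) → ∀ j ∈ Finset.range p, w (t ^ j * c j ^ p) ≤ 1 :=
    fun c hc j _ => NV.mul_le_one (NV.pow_le_one' ht1 j) (NV.pow_le_one' (hc j) p)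
  have hred : ∀ c : ℕ → K, (∀ j, w (c j) ≤ 1) →
      w.red (∑ j ∈ Finset.range p, t ^ j * c j ^ p) =
        ∑ j ∈ Finset.range p, w.red t ^ j * w.red (c j) ^ p := by
    intro c hc
    rw [NV.red_sum (hle c hc)]
    refine Finset.sum_congr rfl fun j _ => ?_
    rw [NV.red_mul (NV.pow_le_one' ht1 j) (NV.pow_le_one' (hc j) p), NV.red_pow ht1,
      NV.red_pow (hc j)]
  refine ⟨t, ⟨?_, ?_⟩, hG, CFld_finite hG.transc⟩
  · intro x hx
    obtain ⟨d, hd⟩ := hgen (w.red x)
    choose c hc1 hc2 using fun j => NV.red_surj (d j)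
    refine ⟨c, hc1, ?_⟩
    have hs1 : w (∑ j ∈ Finset.range p, t ^ j * c j ^ p) ≤ 1 :=
      NV.sum_le zero_le_one (hle c hc1)
    rw [← NV.red_eq_zero (NV.sub_le hx hs1), NV.red_sub hx hs1, hred c hc1, hd, sub_eq_zero]
    refine Finset.sum_congr rfl fun j _ => ?_
    rw [hc2]
  · intro c hc h j hj
    rw [← NV.red_eq_zero (NV.sum_le zero_le_one (hle c hc)), hred c hc] at h
    have := hind (fun j => w.red (c j)) h j hj
    exact (NV.red_eq_zero (hc j)).1 this

end main

end P025H359
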