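import Vale.Agent.P025.R2.H133.Gen

/-!
# P025 G-S1 (C2): derivations are bounded (helper359)

`bounded_D`: from an orthonormal `C(T)`-basis of `K` (for the maximum of all the absolute values
over the Gauss norm) a derivation `D` with `D T = 1` is bounded for each of these absolute values.
-/

set_option linter.unusedSectionVars false

open Polynomial IntermediateField

namespace P025H359

open P025H373 P025H746 P025H133

variable {C K : Type*} [NontriviallyNormedField C] [IsUltrametricDist C] [Field K] [Algebra C K]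
  {T : K}

theorem gp_derivative_le (P : C[X]) : gp (derivative P) ≤ gp P := by
  rw [gp_le_iff]
  intro i
  rw [coeff_derivative, norm_mul]
  have h1 : ‖((i : C) + 1)‖ ≤ 1 := by
    have := IsUltrametricDist.norm_natCast_le_one C (i + 1)
    push_cast at this
    exact this
  exact (mul_le_of_le_one_right (norm_nonneg _) h1).trans (norm_coeff_le P (i + 1))

theorem D_aeval (D : Derivation C K K) (hD : D T = 1) (P : C[X]) :
    D (aeval T P) = aeval T (derivative P) := by
  rw [Derivation.map_aeval, hD, smul_eq_mul, mul_one]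

/-- the bound for the maximum of all the absolute values over the Gauss norm -/
theorem max_bound [FiniteDimensional C⟮T⟯ K] {n : ℕ} {z : Fin n → K} (hz : ONB C T z)
    (D : Derivation C K K) (hD : D T = 1) :
    ∃ A : ℝ, 1 ≤ A ∧ ∀ (x : K) (r : ℝ), 0 ≤ r → (∀ v : NV C K, v.OverG T → v x ≤ r) →
      ∀ v : NV C K, v.OverG T → v (D x) ≤ A * r := by
  classical
  obtain ⟨A, hA1, hA⟩ : ∃ A : ℝ, 1 ≤ A ∧ ∀ v : NV C K, v.OverG T → ∀ k, v (D (z k)) ≤ A := by
    have h0 : ∀ (v : {v : NV C K // v.OverG T}) (k : Fin n), 0 ≤ v.1 (D (z k)) :=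
      fun v k => v.1.av.nonneg _
    refine ⟨1 + ∑ v : {v : NV C K // v.OverG T}, ∑ k, v.1 (D (z k)), ?_, ?_⟩
    · have : 0 ≤ ∑ v : {v : NV C K // v.OverG T}, ∑ k, v.1 (D (z k)) :=
        Finset.sum_nonneg fun v _ => Finset.sum_nonneg fun k _ => h0 v k
      linarith
    · intro v hv k
      have h1 := Finset.single_le_sum (f := fun v : {v : NV C K // v.OverG T} =>
        ∑ k, v.1 (D (z k))) (fun v _ => Finset.sum_nonneg fun k _ => h0 v k)
        (Finset.mem_univ (⟨v, hv⟩ : {v : NV C K // v.OverG T}))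
      have h2 := Finset.single_le_sum (f := fun k => v (D (z k)))
        (fun k _ => h0 ⟨v, hv⟩ k) (Finset.mem_univ k)
      dsimp only at h1 h2
      linarith
  refine ⟨A, hA1, ?_⟩
  intro x r hr hx v hv
  obtain ⟨Q, P, hQ, hQP⟩ := hz.span x
  have hgQ : 0 < gp Q := lt_of_le_of_ne (gp_nonneg Q) (fun h => hQ (gp_eq_zero.mp h.symm))
  have hQr : 0 ≤ gp Q * r := mul_nonneg hgQ.le hr
  have hPk : ∀ k, gp (P k) ≤ gp Q * r := by
    refine hz.on P (gp Q * r) fun u hu => ?_
    rw [← hQP, map_mul, hu Q]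
    exact mul_le_mul_of_nonneg_left (hx u hu) hgQ.le
  have hDS : aeval T Q * D x = ∑ k, (aeval T (derivative (P k)) * z k + aeval T (P k) * D (z k)) -
      x * aeval T (derivative Q) := by
    have h1 := congrArg D hQP
    rw [Derivation.leibniz, D_aeval D hD, map_sum, smul_eq_mul, smul_eq_mul] at h1
    have h2 : ∀ k, D (aeval T (P k) * z k) =
        aeval T (derivative (P k)) * z k + aeval T (P k) * D (z k) := by
      intro k
      rw [Derivation.leibniz, D_aeval D hD, smul_eq_mul, smul_eq_mul]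
      ring
    rw [Finset.sum_congr rfl fun k _ => h2 k] at h1
    rw [← h1]
    ring
  have hle : v (aeval T Q * D x) ≤ A * (gp Q * r) := by
    have hA' : gp Q * r ≤ A * (gp Q * r) := le_mul_of_one_le_left hQr hA1
    have hA0 : 0 ≤ A * (gp Q * r) := hQr.trans hA'
    rw [hDS]
    refine NV.sub_le (NV.sum_le hA0 fun k _ => NV.add_le ?_ ?_) ?_
    · rw [map_mul, hv]
      refine le_trans ?_ hA'
      exact (mul_le_of_le_one_right (gp_nonneg _) (hz.le v hv k)).trans
        ((gp_derivative_le (P k)).trans (hPk k))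
    · rw [map_mul, hv, mul_comm A]
      exact mul_le_mul (hPk k) (hA v hv k) (v.av.nonneg _) hQr
    · rw [map_mul, hv, mul_comm]
      refine le_trans ?_ hA'
      exact mul_le_mul (gp_derivative_le Q) (hx v hv) (v.av.nonneg _) hgQ.le
  rw [map_mul, hv, ← mul_assoc, mul_comm A, mul_assoc] at hle
  exact le_of_mul_le_mul_left hle hgQ

/-- **(C2)** -/
theorem bounded_D [FiniteDimensional C⟮T⟯ K] {n : ℕ} {z : Fin n → K} (hz : ONB C T z)
    {w : NV C K} (hw : w.OverG T) (D : Derivation C K K) (hD : D T = 1) :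
    ∃ M : ℝ, ∀ x, w (D x) ≤ M * w x := by
  classical
  obtain ⟨A, hA1, hA⟩ := max_bound hz D hD
  obtain ⟨e, -, he, hej⟩ := P025H458.exists_idem (ι := {v : NV C K // v.OverG T})
    (fun v => v.1.av) (fun v => v.1.na) (fun v => v.1.ext')
    (fun v v' h => Subtype.ext (NV.ext h)) ⟨w, hw⟩
  refine ⟨max A (w (D e)), fun x => ?_⟩
  rcases eq_or_ne x 0 with rfl | hx
  · simp
  have hwx : 0 < w x := w.av.pos hx
  -- choose the exponent
  obtain ⟨m, hm⟩ : ∃ m : ℕ, ∀ v : {v : NV C K // v.OverG T}, v ≠ ⟨w, hw⟩ →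
      v.1 e ^ m * v.1 x ≤ w x := by
    have h1 : ∀ v : {v : NV C K // v.OverG T}, ∃ m : ℕ, ∀ k, m ≤ k → v ≠ ⟨w, hw⟩ →
        v.1 e ^ k * v.1 x ≤ w x := by
      intro v
      by_cases hvw : v = ⟨w, hw⟩
      · exact ⟨0, fun k _ h => absurd hvw h⟩
      · have h2 : Filter.Tendsto (fun k : ℕ => v.1 e ^ k * v.1 x) Filter.atTop (nhds 0) := by
          simpa using
            (tendsto_pow_atTop_nhds_zero_of_lt_one (v.1.av.nonneg _) (hej v hvw)).mul_const (v.1 x)
        obtain ⟨m, hm⟩ := Filter.eventually_atTop.mp (h2.eventually (gt_mem_nhds hwx))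
        exact ⟨m, fun k hk _ => (hm k hk).le⟩
    choose m hm using h1
    refine ⟨∑ v, m v, fun v hv => hm v _ ?_ hv⟩
    exact Finset.single_le_sum (f := m) (fun _ _ => Nat.zero_le _) (Finset.mem_univ v)
  have h3 : ∀ v : NV C K, v.OverG T → v (e ^ m * x) ≤ w x := by
    intro v hv
    rw [map_mul, map_pow]
    by_cases hvw : (⟨v, hv⟩ : {v : NV C K // v.OverG T}) = ⟨w, hw⟩
    · obtain rfl : v = w := congrArg Subtype.val hvw
      rw [show v e = 1 from he, one_pow, one_mul]
    · exact hm ⟨v, hv⟩ hvw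
  have h4 := hA (e ^ m * x) (w x) hwx.le h3 w hw
  have he' : w e = 1 := he
  have h5 : D x * e ^ m = D (e ^ m * x) - x * (m * e ^ (m - 1) * D e) := by
    rw [Derivation.leibniz, Derivation.leibniz_pow]
    simp only [smul_eq_mul, nsmul_eq_mul]
    ring
  have h6 : w (D x) = w (D x * e ^ m) := by rw [map_mul, map_pow, he', one_pow, mul_one]
  rw [h6, h5, max_mul_of_nonneg _ _ hwx.le]
  refine (P025H458.na_sub w.na _ _).trans (max_le_max h4 ?_)
  rw [map_mul, map_mul, map_mul, map_pow, he', one_pow, mul_one, mul_comm (w x)]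
  refine mul_le_mul_of_nonneg_right ?_ hwx.le
  refine mul_le_of_le_one_left (w.av.nonneg _) ?_
  have := w.ext' (m : C)
  rw [map_natCast] at this
  rw [this]
  exact IsUltrametricDist.norm_natCast_le_one C m

end P025H359
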