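import Vale.Agent.P025.R2.H359.Eval2

/-!
# P025 A-DIV (helper359), file 2: from `h ∈ F1^{(T')} ⊗ N` a `q`-th power to all edges where
`|T'| ≤ 1` ((A2.1), transfer step).
-/

open Polynomial
open scoped TensorProduct

universe u v w

namespace P025H359

open P025H373

set_option linter.style.haveILetI false

variable {C : Type u} [NontriviallyNormedField C] [IsUltrametricDist C] [CompleteSpace C]
  [IsAlgClosed C]

/-- (A0.2) in tensor form: if `|T'|_w ≤ 1` (`T'` = image of `X`), then `F1 ⊗_{C(T')} N → κ(w)`. -/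
theorem exists_tensor_hom {κ : Type v} [Field κ] [Algebra (F0 C) κ]
    [Algebra.IsAlgebraic (F0 C) κ] {N : Type w} [Field N] [Algebra (RatFunc C) N] (f : N →+* κ)
    (hf : ∀ a : C, f (algebraMap (RatFunc C) N (RatFunc.C a)) =
      algebraMap (F0 C) κ (algebraMap C (F0 C) a))
    (hT : spectralNorm (F0 C) κ (f (algebraMap (RatFunc C) N RatFunc.X)) ≤ 1) :
    ∃ Φ : F1 C ⊗[RatFunc C] N →+* κ, (∀ n : N, Φ ((1 : F1 C) ⊗ₜ n) = f n) ∧
      ∀ x : F1 C, (x : F0 C) ∈ A1 C →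
        spectralNorm (F0 C) κ (Φ (x ⊗ₜ (1 : N))) ≤ ‖(x : F0 C)‖ := by
  obtain ⟨φ, h1, h2⟩ := exists_eval_alg (κ := κ) (f.comp (algebraMap (RatFunc C) N)) hf hT
  letI : Algebra (RatFunc C) κ := (f.comp (algebraMap (RatFunc C) N)).toAlgebra
  let φ' : F1 C →ₐ[RatFunc C] κ := { φ with commutes' := h1 }
  let f' : N →ₐ[RatFunc C] κ := { f with commutes' := fun r => rfl }
  let Φ : F1 C ⊗[RatFunc C] N →ₐ[RatFunc C] κ :=
    Algebra.TensorProduct.lift φ' f' (fun _ _ => Commute.all _ _)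
  refine ⟨Φ.toRingHom, fun n => ?_, fun x hx => ?_⟩
  · show Φ ((1 : F1 C) ⊗ₜ n) = f n
    rw [Algebra.TensorProduct.lift_tmul, map_one, one_mul]
    rfl
  · show spectralNorm (F0 C) κ (Φ (x ⊗ₜ (1 : N))) ≤ _
    rw [Algebra.TensorProduct.lift_tmul, map_one, mul_one]
    exact h2 x hx

/-- (A2.1), transfer step. -/
theorem pow_of_tensor {κ : Type v} [Field κ] [Algebra (F0 C) κ]
    [Algebra.IsAlgebraic (F0 C) κ] {N : Type w} [Field N] [Algebra (RatFunc C) N] (f : N →+* κ)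
    (hf : ∀ a : C, f (algebraMap (RatFunc C) N (RatFunc.C a)) =
      algebraMap (F0 C) κ (algebraMap C (F0 C) a))
    (hT : spectralNorm (F0 C) κ (f (algebraMap (RatFunc C) N RatFunc.X)) ≤ 1)
    {q : ℕ} {h : N} {z : F1 C ⊗[RatFunc C] N} (hz : z ^ q = (1 : F1 C) ⊗ₜ h) :
    ∃ y : κ, y ^ q = f h := by
  obtain ⟨Φ, h1, -⟩ := exists_tensor_hom f hf hT
  exact ⟨Φ z, by rw [← map_pow, hz, h1]⟩

end P025H359
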