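import Vale.Agent.P025.R2.H373.Gauss5

/-!
# P025 A-DIV / (A0.2) (helper359): evaluation homomorphism `F1 C → κ`, `t ↦ T`

`κ` a complete ultrametric normed field over `C`, `r : C(t) → κ` a `C`-homomorphism with
`‖r t‖ ≤ 1`.  Then `r` extends to the functions on the closed disc `|t| ≤ 1`.
-/

open Polynomial Filter Topology

universe u

namespace P025H359

open P025H373

section Eval

variable {C : Type u} [NormedField C] [IsUltrametricDist C]
  {κ : Type*} [NormedField κ] [IsUltrametricDist κ] [NormedAlgebra C κ]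

theorem nsub {A : Type*} [NormedField A] [IsUltrametricDist A] (a b : A) :
    ‖a - b‖ ≤ max ‖a‖ ‖b‖ := by
  rw [sub_eq_add_neg, ← norm_neg b]
  exact IsUltrametricDist.norm_add_le_max _ _

theorem mul_close {A : Type*} [NormedField A] [IsUltrametricDist A] {δ M ε : ℝ} (hδ0 : 0 < δ)
    (hε : 0 < ε) (hδM : δ * M ≤ ε) (a a' p q : A) (ha : ‖a - p‖ < δ)
    (ha' : ‖a' - q‖ < δ) (hp : ‖p‖ ≤ M) (ha2 : ‖a'‖ ≤ M) : ‖a * a' - p * q‖ < ε := by
  have e : a * a' - p * q = (a - p) * a' + p * (a' - q) := by ring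
  rw [e]
  refine (IsUltrametricDist.norm_add_le_max _ _).trans_lt (max_lt ?_ ?_)
  · rw [norm_mul]
    rcases eq_or_lt_of_le (norm_nonneg a') with h0 | h0
    · rw [← h0, mul_zero]; exact hε
    · calc ‖a - p‖ * ‖a'‖ < δ * ‖a'‖ := mul_lt_mul_of_pos_right ha h0
        _ ≤ δ * M := mul_le_mul_of_nonneg_left ha2 hδ0.le
        _ ≤ ε := hδM
  · rw [norm_mul]
    rcases eq_or_lt_of_le (norm_nonneg p) with h0 | h0
    · rw [← h0, zero_mul]; exact hε
    · calc ‖p‖ * ‖a' - q‖ < ‖p‖ * δ := mul_lt_mul_of_pos_left ha' h0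
        _ ≤ M * δ := mul_le_mul_of_nonneg_right hp hδ0.le
        _ = δ * M := mul_comm _ _
        _ ≤ ε := hδM

/-- evaluation at a point of norm at most one does not increase the Gauss norm -/
theorem norm_aeval_le {T : κ} (hT : ‖T‖ ≤ 1) (P : C[X]) : ‖aeval T P‖ ≤ gp P := by
  rw [aeval_eq_sum_range]
  refine IsUltrametricDist.norm_sum_le_of_forall_le_of_nonneg (gp_nonneg P) fun i _ => ?_
  rw [norm_smul, norm_pow]
  calc ‖P.coeff i‖ * ‖T‖ ^ i ≤ gp P * 1 :=
        mul_le_mul (norm_coeff_le P i) (pow_le_one₀ (norm_nonneg _) hT) (by positivity)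
          (gp_nonneg P)
    _ = gp P := mul_one _

/-- `y` is the value of `x ∈ A1` at `T` -/
def Rel (T : κ) (x : F0 C) (y : κ) : Prop :=
  ∀ ε : ℝ, 0 < ε → ∃ P : C[X], ‖x - aeval (tt C) P‖ < ε ∧ ‖y - aeval T P‖ < ε

theorem Rel.norm_le {T : κ} (hT : ‖T‖ ≤ 1) {x : F0 C} {y : κ} (h : Rel T x y) : ‖y‖ ≤ ‖x‖ := by
  apply le_of_forall_pos_le_add
  intro ε hε
  obtain ⟨P, h1, h2⟩ := h ε hε
  have e1 : y = (y - aeval T P) + aeval T P := by ring
  have e2 : aeval (tt C) P = x - (x - aeval (tt C) P) := by ring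
  have h3 : gp P ≤ max ‖x‖ ‖x - aeval (tt C) P‖ := by
    rw [← norm_aeval]
    conv_lhs => rw [e2]
    exact nsub _ _
  have h4 : ‖y‖ ≤ max ‖y - aeval T P‖ ‖aeval T P‖ := by
    conv_lhs => rw [e1]
    exact IsUltrametricDist.norm_add_le_max _ _
  refine h4.trans (max_le ?_ ?_)
  · linarith [norm_nonneg x]
  · refine (norm_aeval_le hT P).trans (h3.trans (max_le ?_ ?_))
    · linarith
    · linarith [norm_nonneg x]

theorem Rel.sub {T : κ} {x x' : F0 C} {y y' : κ} (h : Rel T x y) (h' : Rel T x' y') :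
    Rel T (x - x') (y - y') := by
  intro ε hε
  obtain ⟨P, h1, h2⟩ := h ε hε
  obtain ⟨Q, h3, h4⟩ := h' ε hε
  refine ⟨P - Q, ?_, ?_⟩
  · have e : x - x' - aeval (tt C) (P - Q) = (x - aeval (tt C) P) - (x' - aeval (tt C) Q) := by
      rw [map_sub]; ring
    rw [e]
    exact (nsub _ _).trans_lt (max_lt h1 h3)
  · have e : y - y' - aeval T (P - Q) = (y - aeval T P) - (y' - aeval T Q) := by
      rw [map_sub]; ring
    rw [e]
    exact (nsub _ _).trans_lt (max_lt h2 h4)

theorem rel_poly (T : κ) (P : C[X]) : Rel T (aeval (tt C) P) (aeval T P) := by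
  intro ε hε
  exact ⟨P, by simpa using hε, by simpa using hε⟩

theorem Rel.neg {T : κ} {x : F0 C} {y : κ} (h : Rel T x y) : Rel T (-x) (-y) := by
  have h1 := (rel_poly T (0 : C[X])).sub h
  simpa using h1

theorem Rel.add {T : κ} {x x' : F0 C} {y y' : κ} (h : Rel T x y) (h' : Rel T x' y') :
    Rel T (x + x') (y + y') := by
  have h1 := h.sub h'.neg
  simpa using h1

theorem Rel.unique {T : κ} (hT : ‖T‖ ≤ 1) {x : F0 C} {y y' : κ} (h : Rel T x y)
    (h' : Rel T x y') : y = y' := by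
  have h1 := (h.sub h').norm_le hT
  rw [sub_self, norm_zero] at h1
  exact sub_eq_zero.mp (norm_le_zero_iff.mp h1)

theorem Rel.mul {T : κ} (hT : ‖T‖ ≤ 1) {x x' : F0 C} {y y' : κ} (h : Rel T x y)
    (h' : Rel T x' y') : Rel T (x * x') (y * y') := by
  intro ε hε
  -- choose precision
  set M : ℝ := max (max ‖x‖ ‖x'‖) 1 with hM
  have hM1 : 1 ≤ M := le_max_right _ _
  have hMx : ‖x‖ ≤ M := (le_max_left _ _).trans (le_max_left _ _)
  have hMx' : ‖x'‖ ≤ M := (le_max_right _ _).trans (le_max_left _ _)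
  set δ : ℝ := min 1 (ε / M) with hδ
  have hδ0 : 0 < δ := lt_min one_pos (div_pos hε (by linarith))
  have hδ1 : δ ≤ 1 := min_le_left _ _
  have hδM : δ * M ≤ ε := by
    calc δ * M ≤ (ε / M) * M := by
          apply mul_le_mul_of_nonneg_right (min_le_right _ _) (by linarith)
      _ = ε := div_mul_cancel₀ _ (by linarith)
  obtain ⟨P, h1, h2⟩ := h δ hδ0
  obtain ⟨Q, h3, h4⟩ := h' δ hδ0
  have hP : ‖aeval (tt C) P‖ ≤ M := by
    have e2 : aeval (tt C) P = x - (x - aeval (tt C) P) := by ring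
    rw [e2]
    exact (nsub _ _).trans (max_le hMx (by linarith))
  have hP' : ‖aeval T P‖ ≤ M := (norm_aeval_le hT P).trans (by rw [← norm_aeval]; exact hP)
  have hy' : ‖y'‖ ≤ M := (h'.norm_le hT).trans hMx'
  refine ⟨P * Q, ?_, ?_⟩
  · rw [map_mul]; exact mul_close hδ0 hε hδM _ _ _ _ h1 h3 hP hMx'
  · rw [map_mul]; exact mul_close hδ0 hε hδM _ _ _ _ h2 h4 hP' hy'

theorem exists_rel [CompleteSpace κ] {T : κ} (hT : ‖T‖ ≤ 1) {x : F0 C} (hx : x ∈ A1 C) :
    ∃ y : κ, Rel T x y := by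
  have h0 : ∀ n : ℕ, ∃ P : C[X], ‖x - aeval (tt C) P‖ < 1 / ((n : ℝ) + 1) := by
    intro n
    have hx' : x ∈ closure (Set.range fun P : C[X] => aeval (tt C) P) := by
      refine A1_induction (p := fun x => x ∈ closure (Set.range fun P : C[X] => aeval (tt C) P))
        isClosed_closure ?_ hx
      intro P
      exact subset_closure ⟨P, rfl⟩
    rw [Metric.mem_closure_iff] at hx'
    obtain ⟨_, ⟨P, rfl⟩, hP⟩ := hx' (1 / ((n : ℝ) + 1)) (by positivity)
    exact ⟨P, by rwa [dist_eq_norm] at hP⟩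
  choose P hP using h0
  have hbound : ∀ m n : ℕ, ‖aeval T (P m) - aeval T (P n)‖ ≤
      max (1 / ((m : ℝ) + 1)) (1 / ((n : ℝ) + 1)) := by
    intro m n
    rw [← map_sub]
    refine (norm_aeval_le hT _).trans ?_
    rw [← norm_aeval, map_sub]
    have e : aeval (tt C) (P m) - aeval (tt C) (P n) =
        (x - aeval (tt C) (P n)) - (x - aeval (tt C) (P m)) := by ring
    rw [e]
    refine (nsub _ _).trans ?_
    rw [max_comm]
    exact max_le_max (hP m).le (hP n).le
  have hc : CauchySeq fun n => aeval T (P n) := by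
    rw [Metric.cauchySeq_iff']
    intro ε hε
    obtain ⟨N, hN⟩ := exists_nat_one_div_lt hε
    refine ⟨N, fun n hn => ?_⟩
    rw [dist_eq_norm]
    refine (hbound n N).trans_lt (max_lt ?_ hN)
    refine lt_of_le_of_lt ?_ hN
    apply one_div_le_one_div_of_le (by positivity)
    have : (N : ℝ) ≤ n := by exact_mod_cast hn
    linarith
  obtain ⟨y, hy⟩ := cauchySeq_tendsto_of_complete hc
  refine ⟨y, fun ε hε => ?_⟩
  obtain ⟨N, hN⟩ := (Metric.tendsto_atTop.mp hy) ε hε
  obtain ⟨N', hN'⟩ := exists_nat_one_div_lt hε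
  refine ⟨P (max N N'), ?_, ?_⟩
  · refine (hP _).trans (lt_of_le_of_lt ?_ hN')
    apply one_div_le_one_div_of_le (by positivity)
    have : (N' : ℝ) ≤ (max N N' : ℕ) := by exact_mod_cast le_max_right N N'
    linarith
  · have h1 := hN (max N N') (le_max_left _ _)
    rw [dist_comm, dist_eq_norm] at h1
    exact h1

/-! ### extension to `F1` -/

/-- `y` is the value of `x ∈ F1` at `T` -/
def RelF (T : κ) (x : F0 C) (y : κ) : Prop :=
  ∃ D : C[X], D ≠ 0 ∧ aeval (tt C) D * x ∈ A1 C ∧ Rel T (aeval (tt C) D * x) (aeval T D * y)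

theorem exists_relF [CompleteSpace C] [IsAlgClosed C] [CompleteSpace κ] {T : κ} (hT : ‖T‖ ≤ 1) (htr : ∀ D : C[X], D ≠ 0 → aeval T D ≠ 0)
    {x : F0 C} (hx : x ∈ F1 C) : ∃ y : κ, RelF T x y := by
  obtain ⟨D, hD, hxD⟩ := mem_F1.mp hx
  obtain ⟨y, hy⟩ := exists_rel hT hxD
  refine ⟨(aeval T D)⁻¹ * y, D, hD, hxD, ?_⟩
  rw [← mul_assoc, mul_inv_cancel₀ (htr D hD), one_mul]
  exact hy

theorem RelF.mul {T : κ} (hT : ‖T‖ ≤ 1) {x x' : F0 C} {y y' : κ} (h : RelF T x y)
    (h' : RelF T x' y') : RelF T (x * x') (y * y') := by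
  obtain ⟨D, hD, h1, h2⟩ := h
  obtain ⟨E, hE, h3, h4⟩ := h'
  have e : aeval (tt C) (D * E) * (x * x') = (aeval (tt C) D * x) * (aeval (tt C) E * x') := by
    rw [map_mul]; ring
  have e' : aeval T (D * E) * (y * y') = (aeval T D * y) * (aeval T E * y') := by
    rw [map_mul]; ring
  refine ⟨D * E, mul_ne_zero hD hE, ?_, ?_⟩
  · rw [e]; exact mul_mem h1 h3
  · rw [e, e']
    exact h2.mul hT h4

theorem RelF.add {T : κ} (hT : ‖T‖ ≤ 1) {x x' : F0 C} {y y' : κ} (h : RelF T x y)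
    (h' : RelF T x' y') : RelF T (x + x') (y + y') := by
  obtain ⟨D, hD, h1, h2⟩ := h
  obtain ⟨E, hE, h3, h4⟩ := h'
  refine ⟨D * E, mul_ne_zero hD hE, ?_, ?_⟩
  · have e : aeval (tt C) (D * E) * (x + x') = aeval (tt C) E * (aeval (tt C) D * x) +
        aeval (tt C) D * (aeval (tt C) E * x') := by rw [map_mul]; ring
    rw [e]
    exact add_mem (mul_mem (aeval_mem_A1 E) h1) (mul_mem (aeval_mem_A1 D) h3)
  · have e : aeval (tt C) (D * E) * (x + x') = aeval (tt C) E * (aeval (tt C) D * x) +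
        aeval (tt C) D * (aeval (tt C) E * x') := by rw [map_mul]; ring
    have e' : aeval T (D * E) * (y + y') = aeval T E * (aeval T D * y) +
        aeval T D * (aeval T E * y') := by rw [map_mul]; ring
    rw [e, e']
    exact ((rel_poly T E).mul hT h2).add ((rel_poly T D).mul hT h4)

theorem RelF.unique {T : κ} (hT : ‖T‖ ≤ 1) (htr : ∀ D : C[X], D ≠ 0 → aeval T D ≠ 0)
    {x : F0 C} {y y' : κ} (h : RelF T x y) (h' : RelF T x y') : y = y' := by
  obtain ⟨D, hD, h1, h2⟩ := h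
  obtain ⟨E, hE, h3, h4⟩ := h'
  have h5 := (rel_poly T E).mul hT h2
  have h6 := (rel_poly T D).mul hT h4
  have e : aeval (tt C) E * (aeval (tt C) D * x) = aeval (tt C) D * (aeval (tt C) E * x) := by ring
  rw [e] at h5
  have h7 := h5.unique hT h6
  have h8 : aeval T E * aeval T D * (y - y') = 0 := by linear_combination h7
  have h9 : aeval T E * aeval T D ≠ 0 := mul_ne_zero (htr E hE) (htr D hD)
  exact sub_eq_zero.mp ((mul_eq_zero.mp h8).resolve_left h9)

/-- **Evaluation homomorphism** on `F1`. -/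
theorem exists_eval [CompleteSpace C] [IsAlgClosed C] [CompleteSpace κ] (r : RatFunc C →ₐ[C] κ) (hT : ‖r RatFunc.X‖ ≤ 1) :
    ∃ φ : F1 C →+* κ, (∀ f : RatFunc C, φ (algebraMap (RatFunc C) (F1 C) f) = r f) ∧
      ∀ x : F1 C, (x : F0 C) ∈ A1 C → ‖φ x‖ ≤ ‖(x : F0 C)‖ := by
  classical
  set T : κ := r RatFunc.X with hTdef
  have hrp : ∀ D : C[X], r (algebraMap C[X] (RatFunc C) D) = aeval T D := by
    intro D
    have h1 : (r.comp (IsScalarTower.toAlgHom C C[X] (RatFunc C))) = aeval T := by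
      apply Polynomial.algHom_ext
      simp [hTdef]
    have h2 := congrArg (fun f : C[X] →ₐ[C] κ => f D) h1
    exact h2
  have htr : ∀ D : C[X], D ≠ 0 → aeval T D ≠ 0 := by
    intro D hD h0
    rw [← hrp] at h0
    have h1 : algebraMap C[X] (RatFunc C) D = 0 :=
      (map_eq_zero r).mp h0
    exact RatFunc.algebraMap_ne_zero hD h1
  have hex : ∀ x : F1 C, ∃ y : κ, RelF T (x : F0 C) y := fun x => exists_relF hT htr x.2
  choose v hv using hex
  have hone : RelF T (1 : F0 C) (1 : κ) := by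
    refine ⟨1, one_ne_zero, ?_, ?_⟩
    · rw [map_one, one_mul]; exact one_mem _
    · have := rel_poly T (1 : C[X])
      simpa using this
  have hzero : RelF T (0 : F0 C) (0 : κ) := by
    refine ⟨1, one_ne_zero, ?_, ?_⟩
    · rw [mul_zero]; exact zero_mem _
    · have := rel_poly T (0 : C[X])
      simpa using this
  let φ : F1 C →+* κ :=
    { toFun := v
      map_one' := (hv 1).unique hT htr (by rw [OneMemClass.coe_one]; exact hone)
      map_mul' := fun x y => (hv (x * y)).unique hT htr (by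
        rw [MulMemClass.coe_mul]; exact (hv x).mul hT (hv y))
      map_zero' := (hv 0).unique hT htr (by rw [ZeroMemClass.coe_zero]; exact hzero)
      map_add' := fun x y => (hv (x + y)).unique hT htr (by
        rw [AddMemClass.coe_add]; exact (hv x).add hT (hv y)) }
  refine ⟨φ, ?_, ?_⟩
  · intro f
    refine (hv _).unique hT htr ?_
    have hd0 : f.denom ≠ 0 := f.denom_ne_zero
    have hd1 : algebraMap C[X] (RatFunc C) f.denom ≠ 0 := RatFunc.algebraMap_ne_zero hd0
    have hcoe : ((algebraMap (RatFunc C) (F1 C) f : F1 C) : F0 C) =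
        algebraMap (RatFunc C) (F0 C) f := rfl
    have hf : f * algebraMap C[X] (RatFunc C) f.denom = algebraMap C[X] (RatFunc C) f.num := by
      have h3 := f.num_div_denom
      rw [div_eq_iff hd1] at h3
      exact h3.symm
    have hf' : aeval (tt C) f.denom * algebraMap (RatFunc C) (F0 C) f = aeval (tt C) f.num := by
      rw [← algebraMap_poly, ← algebraMap_poly, ← map_mul, mul_comm, hf]
    have hf'' : aeval T f.denom * r f = aeval T f.num := by
      rw [← hrp, ← hrp, ← map_mul, mul_comm, hf]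
    refine ⟨f.denom, hd0, ?_, ?_⟩
    · rw [hcoe, hf']; exact aeval_mem_A1 _
    · rw [hcoe, hf', hf'']; exact rel_poly T _
  · intro x hx
    obtain ⟨y, hy⟩ := exists_rel hT hx
    have h1 : RelF T (x : F0 C) y := by
      refine ⟨1, one_ne_zero, ?_, ?_⟩
      · rw [map_one, one_mul]; exact hx
      · rw [map_one, map_one, one_mul, one_mul]; exact hy
    have h2 : φ x = y := (hv x).unique hT htr h1
    rw [h2]
    exact hy.norm_le hT

end Eval

end P025H359
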