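import Vale.Agent.P025.R2.H359.Eval
import Mathlib.Analysis.Normed.Unbundled.SpectralNorm

/-!
# P025 A-DIV / (A0.2) (helper359): evaluation in an algebraic extension of `F0`

`κ/F0` algebraic with the spectral norm, `r : C(t) → κ` a homomorphism over `C` with `|r t| ≤ 1`.
Then `r` extends to `F1 C → κ`.
-/

open Polynomial Filter Topology

universe u v

namespace P025H359

open P025H373

set_option linter.style.haveILetI false
set_option linter.unusedSectionVars false

variable {C : Type u} [NontriviallyNormedField C] [IsUltrametricDist C] [CompleteSpace C]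
  [IsAlgClosed C]

/-- `F0 C` is nontrivially normed -/
theorem exists_one_lt_norm_F0 : ∃ x : F0 C, 1 < ‖x‖ := by
  obtain ⟨a, ha⟩ := NontriviallyNormedField.non_trivial (α := C)
  exact ⟨algebraMap C (F0 C) a, by rwa [norm_algebraMap_C]⟩

/-- finite case -/
theorem exists_eval_fin {κ : Type v} [Field κ] [Algebra (F0 C) κ] [FiniteDimensional (F0 C) κ]
    (r : RatFunc C →+* κ)
    (hr : ∀ a : C, r (RatFunc.C a) = algebraMap (F0 C) κ (algebraMap C (F0 C) a))
    (hT : spectralNorm (F0 C) κ (r RatFunc.X) ≤ 1) :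
    ∃ φ : F1 C →+* κ, (∀ f : RatFunc C, φ (algebraMap (RatFunc C) (F1 C) f) = r f) ∧
      ∀ x : F1 C, (x : F0 C) ∈ A1 C → spectralNorm (F0 C) κ (φ x) ≤ ‖(x : F0 C)‖ := by
  letI : NontriviallyNormedField (F0 C) :=
    { (inferInstance : NormedField (F0 C)) with non_trivial := exists_one_lt_norm_F0 }
  letI i1 : NormedField κ := spectralNorm.normedField (F0 C) κ
  letI i2 : NormedAlgebra (F0 C) κ := spectralNorm.normedAlgebra (F0 C) κ
  haveI i3 : CompleteSpace κ := spectralNorm.completeSpace (K := F0 C) (L := κ)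
  have hnorm : ∀ x : κ, ‖x‖ = spectralNorm (F0 C) κ x := fun x => rfl
  haveI i4 : IsUltrametricDist κ := by
    refine IsUltrametricDist.isUltrametricDist_of_forall_norm_add_le_max_norm fun x y => ?_
    exact isNonarchimedean_spectralNorm x y
  letI i5 : Algebra C κ := ((algebraMap (F0 C) κ).comp (algebraMap C (F0 C))).toAlgebra
  have hal : ∀ a : C, algebraMap C κ a = algebraMap (F0 C) κ (algebraMap C (F0 C) a) :=
    fun a => rfl
  letI i6 : NormedAlgebra C κ :=
    { i5 with
      norm_smul_le := fun a x => by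
        rw [Algebra.smul_def, norm_mul, hal, hnorm (algebraMap (F0 C) κ _), spectralNorm_extends,
          norm_algebraMap_C] }
  let r' : RatFunc C →ₐ[C] κ := { r with commutes' := fun a => hr a }
  obtain ⟨φ, h1, h2⟩ := exists_eval (κ := κ) r' (by
    show ‖r RatFunc.X‖ ≤ 1
    rw [hnorm]; exact hT)
  exact ⟨φ, h1, h2⟩

/-- **Evaluation homomorphism** in an algebraic extension of `F0`. -/
theorem exists_eval_alg {κ : Type v} [Field κ] [Algebra (F0 C) κ] [Algebra.IsAlgebraic (F0 C) κ]
    (r : RatFunc C →+* κ)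
    (hr : ∀ a : C, r (RatFunc.C a) = algebraMap (F0 C) κ (algebraMap C (F0 C) a))
    (hT : spectralNorm (F0 C) κ (r RatFunc.X) ≤ 1) :
    ∃ φ : F1 C →+* κ, (∀ f : RatFunc C, φ (algebraMap (RatFunc C) (F1 C) f) = r f) ∧
      ∀ x : F1 C, (x : F0 C) ∈ A1 C → spectralNorm (F0 C) κ (φ x) ≤ ‖(x : F0 C)‖ := by
  set T : κ := r RatFunc.X with hTd
  let κ' : IntermediateField (F0 C) κ := IntermediateField.adjoin (F0 C) {T}
  have hTm : T ∈ κ' := IntermediateField.mem_adjoin_simple_self (F0 C) T
  haveI : FiniteDimensional (F0 C) κ' := IntermediateField.adjoin.finiteDimensional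
    (Algebra.IsIntegral.isIntegral T)
  have hpoly : ∀ P : C[X], r (algebraMap C[X] (RatFunc C) P) ∈ κ' := by
    intro P
    induction P using Polynomial.induction_on' with
    | add p q hp hq => rw [map_add, map_add]; exact add_mem hp hq
    | monomial n a =>
      rw [← Polynomial.C_mul_X_pow_eq_monomial, map_mul, map_mul, map_pow, map_pow,
        RatFunc.algebraMap_X, RatFunc.algebraMap_C, hr]
      exact mul_mem (κ'.algebraMap_mem _) (pow_mem hTm n)
  have hmem : ∀ f : RatFunc C, r f ∈ κ' := by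
    intro f
    rw [← f.num_div_denom, map_div₀]
    exact div_mem (hpoly _) (hpoly _)
  let r' : RatFunc C →+* κ' := r.codRestrict κ' hmem
  have hr' : ∀ f : RatFunc C, ((r' f : κ') : κ) = r f := fun f => rfl
  have hal : ∀ a : F0 C, ((algebraMap (F0 C) κ' a : κ') : κ) = algebraMap (F0 C) κ a :=
    fun a => rfl
  obtain ⟨φ, h1, h2⟩ := exists_eval_fin (κ := κ') r'
    (fun a => Subtype.ext (by rw [hr', hal]; exact hr a)) (by
      rw [spectralNorm.eq_of_tower (L := κ)]
      exact hT)
  refine ⟨(algebraMap κ' κ).comp φ, fun f => ?_, fun x hx => ?_⟩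
  · have := h1 f
    rw [RingHom.comp_apply, this]
    rfl
  · rw [RingHom.comp_apply, ← spectralNorm.eq_of_tower (L := κ)]
    exact h2 x hx

end P025H359
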